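import Vale.Agent.P097.TC.Defs5
import Vale.Agent.P097.H82.Sel.Dep
import Vale.Agent.P097.H560.Inst
import Vale.Agent.P097.H190.Ult
import Vale.Agent.P097.H315.Marc

/-!
# P097 / case [c] / block (T): literal interfaces

`PK` = the picks (output of SEL, owner helper82), `NB` = bounds of the normalised lines in kpt
coordinates at labels of `A` (output of T-DISC, owner helper91), `TSel` = SEL + TD (COMMON TARGET of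
all lines of proof), `TanEnd` = end of the proof (ST9 + ST10, helpers 839, 330).
PROVED here: `pt_of : TSel → TanEnd → A5.PT`, `tsel_of : SEL → TD → MidOf → TSel`.
-/

set_option linter.all false

open Complex Metric Filter Topology Set MeasureTheory
open scoped ComplexConjugate ENNReal

namespace Vale.Agent.P097.H624.T

open Vale.Agent.P097.TC Vale.Agent.P097.H85 Vale.Agent.P097.H929 Vale.Agent.P097.A5
open Vale.Agent.P097.H82.Sel Vale.Agent.P097.H560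
open Vale.Agent.P097.H190.Ult (LocBdd)
open Vale.Agent.P097.H226.W (Md Vq ax)

/-- **bounds of the normalised lines** `al n, p n` (kpt coordinates at labels of `A`, wide cone
`A5.Wd d`), `ε n` = size, `N n` = integers -/
structure NB (d : ℝ) {ι : Type*} (l : Filter ι) (al p : ι → ℂ × ℂ → ℂ)
    (N : ι → ℤ) (ε : ι → ℝ) (z₁ : ℂ × ℂ) : Prop where
  z1 : z₁ ∈ Wd d
  ε0 : ∀ᶠ n in l, 0 < ε n ∧ ε n ≤ 1
  cal : ∃ C : ℝ, ∀ᶠ n in l, ‖al n z₁ - 2 * Real.pi * N n‖ ≤ C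
  cp : ∃ C : ℝ, ∀ᶠ n in l, ‖p n z₁‖ ≤ C
  nal : LocBdd l (fun n z => (al n z - al n z₁) / ε n) (Wd d)
  np : LocBdd l (fun n z => (p n z - p n z₁) / ε n) (Wd d)
  nc : ∃ c > 0, ∃ z₂ ∈ Wd d, ∀ᶠ n in l, c * ε n ≤ ‖fderiv ℂ (al n) z₂‖ + ‖fderiv ℂ (p n) z₂‖
  gr : ∃ θ < (1 : ℝ), ∀ s' < d, ∀ M : ℝ, ∃ A : ℝ, ∀ z ∈ Wd d, 1 ≤ z.2.im → z.1.im ≤ s' * z.2.im →
    ‖z‖ ≤ M * z.2.im → ∀ᶠ n in l, ‖al n z - al n z₁‖ ≤ A * ε n * (1 + ‖z‖) ^ θ ∧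
      ‖p n z - p n z₁‖ ≤ A * ε n * (1 + ‖z‖) ^ θ

/-- the blow up at the edge point `(y, u)`, scale `r` -/
noncomputable def phi (P : ℝ → ℂ) (c : ℝ → ℝ) (u₀ σ : ℝ) (y u r : ℕ → ℝ) (n : ℕ) (z : ℂ × ℂ) :
    ℂ × ℂ := kpt (P (u n)).im (c u₀) σ (y n) (u n) (r n) z

/-- **output of SEL + TD** at a point of the layer: edge points `(y n, u n) → (y₀, u₀)`, `u n ∈ A`,
scales `r n → 0+`, normalised lines bounded, position mid-level at one point -/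
def TOut (H : ℝ) (A : Set ℝ) (P : ℝ → ℂ) (c : ℝ → ℝ) (y₀ u₀ σ s : ℝ) (al p th : ℂ × ℂ → ℂ) : Prop :=
  ∃ y u r : ℕ → ℝ, Sq A y₀ u₀ y u ∧ Tendsto r atTop (𝓝[>] 0) ∧
    ∃ 𝒰 : Ultrafilter ℕ, (𝒰 : Filter ℕ) ≤ atTop ∧ ∃ (N : ℕ → ℤ) (ε : ℕ → ℝ) (z₁ : ℂ × ℂ),
      NB (s - σ) (𝒰 : Filter ℕ) (fun n z => al (phi P c u₀ σ y u r n z))
        (fun n z => p (phi P c u₀ σ y u r n z)) N ε z₁ ∧
      ∃ z₀ ∈ Nr, ∃ η > 0, ∀ᶠ n in (𝒰 : Filter ℕ), |(th (phi P c u₀ σ y u r n z₀)).im| ≤ H - η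

/-- **TSel** = SEL + TD, common target of all lines of proof -/
def TSel : Prop := ∀ {Λ H : ℝ} {F q : ℂ → ℂ} {b m : ℝ} {Ψ : ℂ → ℂ} {Mj Mk B : Set (ℂ × ℂ)}
  {A : Set ℝ} {P : ℝ → ℂ} {c k : ℝ → ℝ} {K s : ℝ} {al p th : ℂ × ℂ → ℂ} {J : ℂ → ℂ},
  ∃ Nl : Set ℝ, volume Nl = 0 ∧ ∀ {y₀ u₀ σ : ℝ} {y u : ℕ → ℝ},
    W5 Λ H F q b m Ψ Mj Mk B A P c k K y₀ u₀ σ s al p th J → Sq A y₀ u₀ y u →
    (∀ y' u' : ℕ → ℝ, Sq A y₀ u₀ y' u' → Tou H P c u₀ σ th y' u') → (∀ n, u n ∉ Nl) →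
    ∀ {C c₁ : ℝ}, 0 < C → 0 < c₁ → ∀ {h g : ℕ → ℝ} {V₁ : ℝ},
    (∀ n, Nst H b F P th C c₁ (h n) (y n) (u n)) → (∀ n, 0 < g n ∧ g n < h n) →
    Tendsto g atTop (𝓝 0) → LNb F q P c u₀ σ s al p th y u g V₁ → TT F P al th y u g →
    ∀ {d : ℝ}, 0 < d → (∀ n, ∀ᵐ y' : ℝ, |y' - y₀| < d →
      Tendsto (fun S : ℝ => |(th (vp P y' (u n) S)).im|) (𝓝[>] 0) (𝓝 H)) →
    TOut H A P c y₀ u₀ σ s al p th

/-- **TanEnd** = end of the proof: 839 `nl9_of` + Montel + 330 `no_NL9` -/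
def TanEnd : Prop := ∀ {Λ H : ℝ} {F q : ℂ → ℂ} {b m : ℝ} {Ψ : ℂ → ℂ} {Mj Mk B : Set (ℂ × ℂ)}
  {A : Set ℝ} {P : ℝ → ℂ} {c k : ℝ → ℝ} {K y₀ u₀ σ s : ℝ} {al p th : ℂ × ℂ → ℂ} {J : ℂ → ℂ},
  W5 Λ H F q b m Ψ Mj Mk B A P c k K y₀ u₀ σ s al p th J →
  ∀ {y u r : ℕ → ℝ}, Sq A y₀ u₀ y u → Tou H P c u₀ σ th y u → Tendsto r atTop (𝓝[>] 0) →
  ∀ (𝒰 : Ultrafilter ℕ), (𝒰 : Filter ℕ) ≤ atTop → ∀ {N : ℕ → ℤ} {ε : ℕ → ℝ} {z₁ : ℂ × ℂ},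
    NB (s - σ) (𝒰 : Filter ℕ) (fun n z => al (phi P c u₀ σ y u r n z))
      (fun n z => p (phi P c u₀ σ y u r n z)) N ε z₁ →
    ∀ {z₀ : ℂ × ℂ} {η : ℝ}, z₀ ∈ Nr → 0 < η →
    (∀ᶠ n in (𝒰 : Filter ℕ), |(th (phi P c u₀ σ y u r n z₀)).im| ≤ H - η) → False

/-- **block (T)** -/
theorem pt_of (hS : TSel) (hE : TanEnd) : A5.PT := by
  intro Λ H F q b m Ψ Mj Mk B A P c k K s al p th J
  obtain ⟨Nl, h0, h1⟩ := hS (Λ := Λ) (H := H) (F := F) (q := q) (b := b) (m := m) (Ψ := Ψ)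
    (Mj := Mj) (Mk := Mk) (B := B) (A := A) (P := P) (c := c) (k := k) (K := K) (s := s)
    (al := al) (p := p) (th := th) (J := J)
  refine ⟨Nl, h0, ?_⟩
  intro y₀ u₀ σ y u W hSq hTo hu C c₁ hC hc h g V₁ hN hg hgt hL hT d hd hw
  obtain ⟨y', u', r, a1, a2, 𝒰, a3, N, ε, z₁, a4, z₀, hz₀, η, hη, a5⟩ :=
    h1 W hSq hTo hu hC hc hN hg hgt hL hT hd hw
  exact hE W a1 (hTo y' u' a1) a2 𝒰 a3 a4 hz₀ hη a5

/-! ## the main line: SEL (82) and TD (91) -/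

/-- **the picks** (along `atTop`; labels already cut to a small closed ball around `u₀`).
`zs n` = the pick, `us n ∈ A` = recentred label, `S n` = old scale (the picks are chosen after `S n`).
Straight coordinates `Sm P Ψ (zs n).1.re (us n) 1` (helper560) at the recentred label. -/
structure PK (H : ℝ) (F : ℂ → ℂ) (Ψ : ℂ → ℂ) (B : Set (ℂ × ℂ)) (A : Set ℝ) (P : ℝ → ℂ) (c : ℝ → ℝ)
    (y₀ u₀ σ s : ℝ) (al p th : ℂ × ℂ → ℂ) (K₁ K₂ T kap d rm X om e V₁ C : ℝ) (zs : ℕ → ℂ × ℂ)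
    (us S : ℕ → ℝ) : Prop where
  dg : DG A (fun u => (P u).im) c K₁ T
  K2 : 0 < K₂
  kap0 : 0 < kap
  klip : kap * (T + K₁ + 1) ≤ 1 / 4
  d0 : 0 < d
  rm0 : 0 < rm
  rmd : rm ≤ d
  X1 : 1 ≤ X
  om0 : 0 < om
  om1 : om ≤ 1
  e0 : 0 < e
  V0 : 0 ≤ V₁
  C0 : 0 < C
  nat : ∀ z : ℂ × ℂ, ‖z.2 - u₀‖ < 2 * d → 0 < dep A (fun u => (P u).im) c K₁ z →
    dep A (fun u => (P u).im) c K₁ z < 2 * rm → z ∈ B
  -- the pick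
  win : ∀ n, zs n ∈ Zs A (fun u => (P u).im) c K₁ K₂ u₀ d rm
  zt : Tendsto zs atTop (𝓝 ((y₀ : ℂ) + (P u₀).im * I, (u₀ : ℂ)))
  uA : ∀ n, us n ∈ A
  ud : Tendsto (fun n => ((zs n).2.re - us n) / dep A (fun u => (P u).im) c K₁ (zs n)) atTop (𝓝 0)
  mz : ∀ X' : ℝ, Tendsto (fun n => H315.Marc.Mz A (ball (us n) (X' * S n)) (us n)
    (dep A (fun u => (P u).im) c K₁ (zs n))) atTop (𝓝 0)
  E0 : ∀ n, 0 < Ez A (fun u => (P u).im) c K₁ kap (fun z => (al z, p z)) (zs n)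
  -- (G)
  G : ∀ n, ∀ z ∈ Zs A (fun u => (P u).im) c K₁ K₂ u₀ d rm,
    Ez A (fun u => (P u).im) c K₁ kap (fun z => (al z, p z)) z ≤
      C * Ez A (fun u => (P u).im) c K₁ kap (fun z => (al z, p z)) (zs n) *
      ((‖zs n - z‖ + dep A (fun u => (P u).im) c K₁ (zs n) + dep A (fun u => (P u).im) c K₁ z) /
        dep A (fun u => (P u).im) c K₁ (zs n)) ^ (1 / 2 : ℝ) *
      ((‖zs n - z‖ + dep A (fun u => (P u).im) c K₁ (zs n) + dep A (fun u => (P u).im) c K₁ z) /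
        dep A (fun u => (P u).im) c K₁ z) ^ 2
  -- the old scale
  S0 : ∀ n, 0 < S n
  St : Tendsto S atTop (𝓝 0)
  rS : Tendsto (fun n => dep A (fun u => (P u).im) c K₁ (zs n) /
    (S n * Ez A (fun u => (P u).im) c K₁ kap (fun z => (al z, p z)) (zs n))) atTop (𝓝 0)
  -- the ancestors, at all scales between the pick and the old scale
  md : ∀ n, ∀ h : ℝ, dep A (fun u => (P u).im) c K₁ (zs n) ≤ h → h ≤ S n →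
    Md H F (fun z => th (Sm P Ψ (zs n).1.re (us n) 1 z)) X om e h
  vq : ∀ n, ∀ h : ℝ, dep A (fun u => (P u).im) c K₁ (zs n) ≤ h → h ≤ S n →
    |Vq F (fun z => al (Sm P Ψ (zs n).1.re (us n) 1 z))
      (fun z => th (Sm P Ψ (zs n).1.re (us n) 1 z)) h| ≤ V₁
  bl : ∀ n, ∀ h : ℝ, dep A (fun u => (P u).im) c K₁ (zs n) ≤ h → h ≤ S n →
    ‖al (Sm P Ψ (zs n).1.re (us n) 1 (ax h)) - al (zs n)‖ ≤
      C * (1 + Real.log (h / dep A (fun u => (P u).im) c K₁ (zs n)))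
  bp : ∀ n, ∀ h : ℝ, dep A (fun u => (P u).im) c K₁ (zs n) ≤ h → h ≤ S n →
    ‖p (Sm P Ψ (zs n).1.re (us n) 1 (ax h))‖ ≤ C
  pk : ∀ n, |(al (zs n)).im| ≤ C ∧ ‖p (zs n)‖ ≤ C
  -- the lines on the wide cone at the old scale
  arc : ∀ W : Set (ℂ × ℂ), IsCompact W → W ⊆ Wd (s - σ) → ∃ M : ℝ, ∀ᶠ n in atTop, ∀ z ∈ W,
    ‖al (kpt (P (us n)).im (c u₀) σ (zs n).1.re (us n) (S n) z) - al (zs n)‖ ≤
      M * (1 + Real.log (S n / dep A (fun u => (P u).im) c K₁ (zs n))) ∧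
    ‖p (kpt (P (us n)).im (c u₀) σ (zs n).1.re (us n) (S n) z)‖ ≤ M

/-- **TD** = T-DISC -/
def TD : Prop := ∀ {Λ H : ℝ} {F q : ℂ → ℂ} {b m : ℝ} {Ψ : ℂ → ℂ} {Mj Mk B : Set (ℂ × ℂ)}
  {A : Set ℝ} {P : ℝ → ℂ} {c k : ℝ → ℝ} {K y₀ u₀ σ s : ℝ} {al p th : ℂ × ℂ → ℂ} {J : ℂ → ℂ},
  W5 Λ H F q b m Ψ Mj Mk B A P c k K y₀ u₀ σ s al p th J →
  ∀ {K₁ K₂ T kap d rm X om e V₁ C : ℝ} {zs : ℕ → ℂ × ℂ} {us S : ℕ → ℝ},
    PK H F Ψ B A P c y₀ u₀ σ s al p th K₁ K₂ T kap d rm X om e V₁ C zs us S →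
    ∀ 𝒰 : Ultrafilter ℕ, (𝒰 : Filter ℕ) ≤ atTop → ∃ (N : ℕ → ℤ) (z₁ : ℂ × ℂ),
      NB (s - σ) (𝒰 : Filter ℕ)
        (fun n z => al (phi P c u₀ σ (fun n => (zs n).1.re) us
          (fun n => dep A (fun u => (P u).im) c K₁ (zs n)) n z))
        (fun n z => p (phi P c u₀ σ (fun n => (zs n).1.re) us
          (fun n => dep A (fun u => (P u).im) c K₁ (zs n)) n z)) N
        (fun n => Ez A (fun u => (P u).im) c K₁ kap (fun z => (al z, p z)) (zs n)) z₁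

/-- **MidOf** : `Md` at the windows gives one mid-level point in kpt coordinates -/
def MidOf : Prop := ∀ {Λ H : ℝ} {F q : ℂ → ℂ} {b m : ℝ} {Ψ : ℂ → ℂ} {Mj Mk B : Set (ℂ × ℂ)}
  {A : Set ℝ} {P : ℝ → ℂ} {c k : ℝ → ℝ} {K y₀ u₀ σ s : ℝ} {al p th : ℂ × ℂ → ℂ} {J : ℂ → ℂ},
  W5 Λ H F q b m Ψ Mj Mk B A P c k K y₀ u₀ σ s al p th J →
  ∀ {y u r : ℕ → ℝ}, Sq A y₀ u₀ y u → Tendsto r atTop (𝓝[>] 0) →
  ∀ (𝒰 : Ultrafilter ℕ), (𝒰 : Filter ℕ) ≤ atTop → ∀ {X om e : ℝ}, 0 < om → 0 < e →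
    (∀ᶠ n in (𝒰 : Filter ℕ), Md H F (fun z => th (Sm P Ψ (y n) (u n) 1 z)) X om e (r n)) →
    ∃ z₀ ∈ Nr, ∃ η > 0, ∀ᶠ n in (𝒰 : Filter ℕ), |(th (phi P c u₀ σ y u r n z₀)).im| ≤ H - η

/-- **SEL** -/
def SEL : Prop := ∀ {Λ H : ℝ} {F q : ℂ → ℂ} {b m : ℝ} {Ψ : ℂ → ℂ} {Mj Mk B : Set (ℂ × ℂ)}
  {A : Set ℝ} {P : ℝ → ℂ} {c k : ℝ → ℝ} {K s : ℝ} {al p th : ℂ × ℂ → ℂ} {J : ℂ → ℂ},
  ∃ Nl : Set ℝ, volume Nl = 0 ∧ ∀ {y₀ u₀ σ : ℝ} {y u : ℕ → ℝ},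
    W5 Λ H F q b m Ψ Mj Mk B A P c k K y₀ u₀ σ s al p th J → Sq A y₀ u₀ y u →
    (∀ y' u' : ℕ → ℝ, Sq A y₀ u₀ y' u' → Tou H P c u₀ σ th y' u') → (∀ n, u n ∉ Nl) →
    ∀ {C c₁ : ℝ}, 0 < C → 0 < c₁ → ∀ {h g : ℕ → ℝ} {V₁ : ℝ},
    (∀ n, Nst H b F P th C c₁ (h n) (y n) (u n)) → (∀ n, 0 < g n ∧ g n < h n) →
    Tendsto g atTop (𝓝 0) → LNb F q P c u₀ σ s al p th y u g V₁ → TT F P al th y u g →
    ∀ {d : ℝ}, 0 < d → (∀ n, ∀ᵐ y' : ℝ, |y' - y₀| < d →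
      Tendsto (fun S : ℝ => |(th (vp P y' (u n) S)).im|) (𝓝[>] 0) (𝓝 H)) →
    ∃ d' > 0, ∃ (K₁ K₂ T kap d rm X om e V₁ C : ℝ) (zs : ℕ → ℂ × ℂ) (us S : ℕ → ℝ),
      PK H F Ψ B (A ∩ closedBall u₀ d') P c y₀ u₀ σ s al p th K₁ K₂ T kap d rm X om e V₁ C zs us S

/-! ## restriction of the world to fewer labels -/

theorem CmpU.mono {M : Set (ℂ × ℂ)} {b m : ℝ} {Ψ : ℂ → ℂ} {A A' : Set ℝ} {P : ℝ → ℂ}
    {c k : ℝ → ℝ} (h : CmpU M b m Ψ A P c k) (hA : A' ⊆ A) : CmpU M b m Ψ A' P c k := by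
  obtain ⟨T', hT'⟩ := h.bd
  refine ⟨⟨T', fun u hu => hT' u (hA hu)⟩, fun c₁ hc₁ ε₁ hε₁ => ?_⟩
  obtain ⟨ρ, hρ, h3⟩ := h.cmp c₁ hc₁ ε₁ hε₁
  exact ⟨ρ, hρ, fun u hu => h3 u (hA hu)⟩

theorem RegB.sub {M : Set (ℂ × ℂ)} {b : ℝ} {A A' : Set ℝ} {P : ℝ → ℂ} {c : ℝ → ℝ} {y u s : ℝ}
    (h : RegB M b A P c y u s) (hA : A' ⊆ A) : RegB M b A' P c y u s := by
  obtain ⟨d, hd, h⟩ := h
  refine ⟨d, hd, fun c₂ hc₂ Λ₂ => ?_⟩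
  obtain ⟨r₀, hr₀, h⟩ := h c₂ hc₂ Λ₂
  exact ⟨r₀, hr₀, fun u' hu' => h u' (hA hu')⟩

theorem W5.restr {Λ H : ℝ} {F q : ℂ → ℂ} {b m : ℝ} {Ψ : ℂ → ℂ} {Mj Mk B : Set (ℂ × ℂ)}
    {A A' : Set ℝ} {P : ℝ → ℂ} {c k : ℝ → ℝ} {K y₀ u₀ σ s : ℝ} {al p th : ℂ × ℂ → ℂ} {J : ℂ → ℂ}
    (W : W5 Λ H F q b m Ψ Mj Mk B A P c k K y₀ u₀ σ s al p th J) (hA : A' ⊆ A)
    (hc : IsCompact A') (h0 : u₀ ∈ A') :
    W5 Λ H F q b m Ψ Mj Mk B A' P c k K y₀ u₀ σ s al p th J :=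
  { crv := W.crv
    bm := W.bm
    cA := hc
    u0 := h0
    uz := fun u hu => W.uz u (hA hu)
    cR := W.cR.mono hA
    cc := W.cc.mono hA
    hb := fun u hu => W.hb u (hA hu)
    σs := W.σs
    rhj := W.rhj
    rhk := W.rhk
    Uj := CmpU.mono W.Uj hA
    Uk := CmpU.mono W.Uk hA
    regj := fun δ hδ => RegB.sub (W.regj δ hδ) hA
    regk := fun δ hδ => RegB.sub (W.regk δ hδ) hA
    oB := W.oB
    Bj := W.Bj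
    Bk := W.Bk
    K0 := W.K0
    coneU := fun ε hε => by
      obtain ⟨δ, hδ, h⟩ := W.coneU ε hε
      exact ⟨δ, hδ, fun u hu => h u (hA hu)⟩
    dal := W.dal
    dp := W.dp
    dth := W.dth
    mem := W.mem
    inc := W.inc
    smp := W.smp
    area := W.area
    cJ := W.cJ
    J0 := W.J0 }

/-- **the main line** -/
theorem tsel_of (hS : SEL) (hD : TD) (hM : MidOf) : TSel := by
  intro Λ H F q b m Ψ Mj Mk B A P c k K s al p th J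
  obtain ⟨Nl, h0, h1⟩ := hS (Λ := Λ) (H := H) (F := F) (q := q) (b := b) (m := m) (Ψ := Ψ)
    (Mj := Mj) (Mk := Mk) (B := B) (A := A) (P := P) (c := c) (k := k) (K := K) (s := s)
    (al := al) (p := p) (th := th) (J := J)
  refine ⟨Nl, h0, ?_⟩
  intro y₀ u₀ σ y u W hSq hTo hu C c₁ hC hc h g V₁ hN hg hgt hL hT d hd hw
  obtain ⟨d', hd', K₁, K₂, T, kap, d₂, rm, X, om, e, V₂, C₂, zs, us, S, hP⟩ :=
    h1 W hSq hTo hu hC hc hN hg hgt hL hT hd hw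
  have W' := W5.restr W (A' := A ∩ closedBall u₀ d') inter_subset_left
    (W.cA.inter_right isClosed_closedBall) ⟨W.u0, mem_closedBall_self hd'.le⟩
  have hz1 : Tendsto (fun n => (zs n).1) atTop (𝓝 ((y₀ : ℂ) + (P u₀).im * I)) :=
    (continuous_fst.tendsto _).comp hP.zt
  have hz2 : Tendsto (fun n => (zs n).2) atTop (𝓝 (u₀ : ℂ)) := (continuous_snd.tendsto _).comp hP.zt
  have hr0 : ∀ n, 0 < dep (A ∩ closedBall u₀ d') (fun u => (P u).im) c K₁ (zs n) := fun n =>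
    (hP.win n).2.2.1
  have hrt : Tendsto (fun n => dep (A ∩ closedBall u₀ d') (fun u => (P u).im) c K₁ (zs n)) atTop
      (𝓝 0) := by
    have h2 := (hP.dg.cont_dep.tendsto ((y₀ : ℂ) + (P u₀).im * I, (u₀ : ℂ))).comp hP.zt
    have h3 : dep (A ∩ closedBall u₀ d') (fun u => (P u).im) c K₁
        ((y₀ : ℂ) + (P u₀).im * I, (u₀ : ℂ)) = 0 := by
      have := hP.dg.dep_at W'.u0 y₀ 0
      simpa using this
    rw [h3] at h2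
    exact h2
  have hr : Tendsto (fun n => dep (A ∩ closedBall u₀ d') (fun u => (P u).im) c K₁ (zs n)) atTop
      (𝓝[>] 0) := tendsto_nhdsWithin_iff.2 ⟨hrt, Eventually.of_forall fun n => hr0 n⟩
  have hut : Tendsto us atTop (𝓝 u₀) := by
    have h2 : Tendsto (fun n => (zs n).2.re) atTop (𝓝 u₀) := by
      have h5 := (Complex.continuous_re.tendsto _).comp hz2
      rw [Complex.ofReal_re] at h5
      exact h5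
    have h3 := hP.ud.mul hrt
    rw [zero_mul] at h3
    have h4 := h2.sub h3
    rw [sub_zero] at h4
    refine h4.congr fun n => ?_
    have := (hr0 n).ne'
    field_simp
    ring
  have hSq' : Sq (A ∩ closedBall u₀ d') y₀ u₀ (fun n => (zs n).1.re) us :=
    ⟨by
      have h5 := (Complex.continuous_re.tendsto _).comp hz1
      have h6 : ((y₀ : ℂ) + (P u₀).im * I).re = y₀ := by simp
      rw [h6] at h5
      exact h5, hut, hP.uA⟩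
  obtain ⟨𝒰, h𝒰⟩ : ∃ 𝒰 : Ultrafilter ℕ, (𝒰 : Filter ℕ) ≤ atTop := ⟨Ultrafilter.of atTop, Ultrafilter.of_le _⟩
  obtain ⟨N, z₁, hNB⟩ := hD W' hP 𝒰 h𝒰
  have hSn : ∀ᶠ n in atTop, dep (A ∩ closedBall u₀ d') (fun u => (P u).im) c K₁ (zs n) ≤ S n := by
    have h2 := hP.rS.eventually (gt_mem_nhds (zero_lt_one))
    filter_upwards [h2] with n hn
    have e1 := hP.E0 n
    have e2 : Ez (A ∩ closedBall u₀ d') (fun u => (P u).im) c K₁ kap (fun z => (al z, p z)) (zs n) ≤ 1 :=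
      Ez_le_one _
    rw [div_lt_one (mul_pos (hP.S0 n) e1)] at hn
    nlinarith [hP.S0 n]
  obtain ⟨z₀, hz₀, η, hη, hm⟩ := hM W' hSq' hr 𝒰 h𝒰 hP.om0 hP.e0 (X := X)
    (h𝒰 (by filter_upwards [hSn] with n hn using hP.md n _ le_rfl hn))
  exact ⟨_, _, _, ⟨hSq'.yt, hSq'.ut, fun n => (hSq'.uA n).1⟩, hr, 𝒰, h𝒰, N, _, z₁, hNB, z₀, hz₀, η,
    hη, hm⟩

end Vale.Agent.P097.H624.T
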