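import Vale.Agent.P097.H560.Back
import Vale.Agent.P097.H190.Ult
import Vale.Agent.P097.H983.Har

/-!
# P097 / case [c] / block (T): one mid-level point in `kpt` coordinates

`mid_of_md` : if the windows of scale `r n` over the feet `(x n, v n)` (straight coordinates of
helper560) are mid-level in the sense of `H226.W.Md`, and the label `u n ∈ A` is at distance `o(r n)`
of `v n`, then the position in the `kpt` coordinates at `(y n, u n)` is mid-level at ONE point of `Nr`.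
-/

set_option linter.all false

open Complex Metric Filter Topology Set
open scoped ComplexConjugate

namespace Vale.Agent.P097.H624.T

open Vale.Agent.P097.TC Vale.Agent.P097.H85 Vale.Agent.P097.H929 Vale.Agent.P097.A5
open Vale.Agent.P097.H560 Vale.Agent.P097.H190.Ult
open Vale.Agent.P097.H226.W (Md Qu Bx)

theorem isOpen_Qu : IsOpen (Qu : Set (ℂ × ℂ)) := by
  have h1 : Continuous fun z : ℂ × ℂ => z.1.im := by fun_prop
  have h2 : Continuous fun z : ℂ × ℂ => z.2.im := by fun_prop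
  exact (isOpen_lt h1 continuous_const).inter (isOpen_lt continuous_const h2)

theorem convex_Qu : Convex ℝ (Qu : Set (ℂ × ℂ)) := by
  rintro x ⟨hx1, hx2⟩ y ⟨hy1, hy2⟩ a b ha hb hab
  refine ⟨?_, ?_⟩
  · show (a • x.1 + b • y.1).im < 0
    simp only [add_im, real_smul, re_ofReal_mul, im_ofReal_mul]
    rcases ha.eq_or_lt with h | h
    · have : b = 1 := by linarith
      rw [← h, this]; linarith
    · nlinarith
  · show 0 < (a • x.2 + b • y.2).im
    simp only [add_im, real_smul, re_ofReal_mul, im_ofReal_mul]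
    rcases ha.eq_or_lt with h | h
    · have : b = 1 := by linarith
      rw [← h, this]; linarith
    · nlinarith

theorem Sx_smul (Ψ : ℂ → ℂ) (x v ρ a : ℝ) (z : ℂ × ℂ) :
    Sx Ψ x v ρ ((a : ℂ) • z) = Sx Ψ x v (ρ * a) z := by
  simp only [Sx, Prod.smul_fst, Prod.smul_snd, smul_eq_mul]
  push_cast
  simp only [mul_assoc]

/-- the position in straight coordinates at small scales -/
theorem pos_Sx {Λ H : ℝ} {F q : ℂ → ℂ} {b m : ℝ} {Ψ : ℂ → ℂ} {Mj Mk B : Set (ℂ × ℂ)}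
    {A : Set ℝ} {P : ℝ → ℂ} {c k : ℝ → ℝ} {K y₀ u₀ σ s : ℝ} {al p th : ℂ × ℂ → ℂ} {J : ℂ → ℂ}
    (W : W5 Λ H F q b m Ψ Mj Mk B A P c k K y₀ u₀ σ s al p th J) :
    ∃ d > 0, ∃ ρ₀ > 0, ∀ v x : ℝ, |v - u₀| < d → |x - (y₀ - (P u₀).re)| < d → ∀ R r : ℝ, 0 < R →
      0 < r → r * R ≤ ρ₀ → ∀ z ∈ Qu, ‖z‖ < R →
        Sx Ψ x v r z ∈ Dm Mj Mk ∧ DifferentiableAt ℂ (fun z => th (Sx Ψ x v r z)) z ∧
        |(th (Sx Ψ x v r z)).im| < H := by
  obtain ⟨d, hd, ρ₀, hρ₀, h⟩ := Sx_mem W.rhk W.Uj W.Uk W.bm W.u0 (W.regk 1 one_pos)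
    (γ := 1) one_pos
  refine ⟨d, hd, ρ₀, hρ₀, ?_⟩
  intro v x hv hx R r hR hr hrR z hz hzR
  obtain ⟨h1, -, h3⟩ := h v hv x hx (r * R) (by positivity) hrR
  have hR' : (R : ℂ) ≠ 0 := ofReal_ne_zero.2 hR.ne'
  set z' : ℂ × ℂ := ((1 / R : ℝ) : ℂ) • z with hz'
  have e1 : ∀ t : ℂ × ℂ, Sx Ψ x v (r * R) (((1 / R : ℝ) : ℂ) • t) = Sx Ψ x v r t := by
    intro t
    rw [Sx_smul]
    congr 1
    field_simp
  have hn : ‖z'‖ < 1 := by
    rw [hz', norm_smul, norm_real, Real.norm_of_nonneg (by positivity)]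
    rw [one_div, inv_mul_lt_iff₀ hR]
    linarith
  have i1 : z'.1.im = z.1.im / R := by
    rw [hz']; simp only [Prod.smul_fst, smul_eq_mul, im_ofReal_mul]; ring
  have i2 : z'.2.im = z.2.im / R := by
    rw [hz']; simp only [Prod.smul_snd, smul_eq_mul, im_ofReal_mul]; ring
  have hB : z' ∈ Bx 1 := by
    have a1 := norm_fst_le z'
    have a2 := norm_snd_le z'
    exact ⟨(abs_re_le_norm _).trans_lt (a1.trans_lt hn), (abs_im_le_norm _).trans_lt (a1.trans_lt hn),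
      (abs_re_le_norm _).trans_lt (a2.trans_lt hn), (abs_im_le_norm _).trans_lt (a2.trans_lt hn)⟩
  have hQ : z' ∈ Qu := ⟨by rw [i1]; exact div_neg_of_neg_of_pos hz.1 hR,
    by rw [i2]; exact div_pos hz.2 hR⟩
  obtain ⟨g1, g2, g3⟩ := h1 z' hB hQ.2
  have g4 := h3 z' ⟨hB, hQ⟩
  have hD : Sx Ψ x v r z ∈ Dm Mj Mk := by
    rw [← e1 z]
    refine ⟨g4, ?_⟩
    show (Sx Ψ x v (r * R) z').2 ≠ 0
    intro h0
    rw [h0, zero_im] at g2
    have : 0 < r * R * z'.2.im := mul_pos (by positivity) hQ.2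
    linarith
  refine ⟨hD, ?_, W.mem _ hD⟩
  have hopen : IsOpen (Dm Mj Mk) :=
    (W.rhj.dn.op.inter W.rhk.dn.op).inter (isOpen_ne.preimage continuous_snd)
  have hS : DifferentiableAt ℂ (fun t : ℂ × ℂ => Sx Ψ x v r t) z := by
    have h5 : DifferentiableAt ℂ (fun t : ℂ × ℂ => Sx Ψ x v (r * R) (((1 / R : ℝ) : ℂ) • t)) z :=
      DifferentiableAt.comp (f := fun t : ℂ × ℂ => ((1 / R : ℝ) : ℂ) • t) z g1
        (differentiableAt_fun_id.const_smul (((1 / R : ℝ) : ℂ)))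
    simpa only [e1] using h5
  exact DifferentiableAt.comp z (W.dth.differentiableAt (hopen.mem_nhds hD)) hS

/-- **mid-level point in `kpt` coordinates** -/
theorem mid_of_md {Λ H : ℝ} {F q : ℂ → ℂ} {b m : ℝ} {Ψ : ℂ → ℂ} {Mj Mk B : Set (ℂ × ℂ)}
    {A : Set ℝ} {P : ℝ → ℂ} {c k : ℝ → ℝ} {K y₀ u₀ σ s : ℝ} {al p th : ℂ × ℂ → ℂ} {J : ℂ → ℂ}
    (W : W5 Λ H F q b m Ψ Mj Mk B A P c k K y₀ u₀ σ s al p th J) {y u r x v : ℕ → ℝ}
    (hS : Sq A y₀ u₀ y u) (hr : Tendsto r atTop (𝓝[>] 0))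
    (hx : Tendsto (fun n => (y n - (P (u n)).re - x n) / r n) atTop (𝓝 0))
    (hv : Tendsto (fun n => (u n - v n) / r n) atTop (𝓝 0))
    (𝒰 : Ultrafilter ℕ) (h𝒰 : (𝒰 : Filter ℕ) ≤ atTop) {X om e : ℝ} (hom : 0 < om) (he : 0 < e)
    (hMd : ∀ᶠ n in (𝒰 : Filter ℕ), Md H F (fun z => th (Sx Ψ (x n) (v n) 1 z)) X om e (r n)) :
    ∃ z₀ ∈ Nr, ∃ η > 0, ∀ᶠ n in (𝒰 : Filter ℕ),
      |(th (kpt (P (u n)).im (c u₀) σ (y n) (u n) (r n) z₀)).im| ≤ H - η := by
  obtain ⟨d, hd, ρ₀, hρ₀, hpos⟩ := pos_Sx W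
  obtain ⟨hPc, hcc, hkc⟩ := cmpU_cont W.Uk
  have hr0 : ∀ᶠ n in atTop, 0 < r n := hr.eventually self_mem_nhdsWithin
  have hrt : Tendsto r atTop (𝓝 0) := hr.mono_right nhdsWithin_le_nhds
  -- feet
  have hdr : ∀ {f : ℕ → ℝ}, Tendsto (fun n => f n / r n) atTop (𝓝 0) → Tendsto f atTop (𝓝 0) := by
    intro f hf
    have h1 := hf.mul hrt
    rw [zero_mul] at h1
    refine h1.congr' ?_
    filter_upwards [hr0] with n hn
    field_simp
  have hvt : Tendsto v atTop (𝓝 u₀) := by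
    have := hS.ut.sub (hdr hv)
    rw [sub_zero] at this
    exact this.congr fun n => by ring
  have hPt : Tendsto (fun n => (P (u n)).re) atTop (𝓝 (P u₀).re) := by
    have h1 : Tendsto (fun n => P (u n)) atTop (𝓝 (P u₀)) :=
      (hPc u₀ W.u0).tendsto.comp (tendsto_nhdsWithin_iff.2 ⟨hS.ut, Eventually.of_forall hS.uA⟩)
    exact (continuous_re.tendsto _).comp h1
  have hxt : Tendsto x atTop (𝓝 (y₀ - (P u₀).re)) := by
    have := (hS.yt.sub hPt).sub (hdr hx)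
    rw [sub_zero] at this
    exact this.congr fun n => by ring
  have ev1 : ∀ᶠ n in atTop, |v n - u₀| < d := by
    have := Metric.tendsto_nhds.1 hvt d hd
    simpa [Real.dist_eq] using this
  have ev2 : ∀ᶠ n in atTop, |x n - (y₀ - (P u₀).re)| < d := by
    have := Metric.tendsto_nhds.1 hxt d hd
    simpa only [Real.dist_eq] using this
  set f : ℕ → ℂ × ℂ → ℂ := fun n z => th (Sx Ψ (x n) (v n) (r n) z) with hf
  have hgood : ∀ R : ℝ, 0 < R → ∀ᶠ n in atTop, ∀ z ∈ Qu, ‖z‖ < R →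
      DifferentiableAt ℂ (f n) z ∧ |(f n z).im| < H := by
    intro R hR
    have e3 : ∀ᶠ n in atTop, r n < ρ₀ / R := hrt.eventually_lt_const (by positivity)
    filter_upwards [ev1, ev2, hr0, e3] with n h1 h2 h3 h4 z hz hzR
    rw [lt_div_iff₀ hR] at h4
    exact (hpos _ _ h1 h2 R (r n) hR h3 h4.le z hz hzR).2
  have hH : 0 < H := by
    obtain ⟨n, hn⟩ := (hgood 2 (by norm_num)).exists
    have h1 := (hn (-I, I) ⟨by simp, by simp⟩ (by
      rw [Prod.norm_def]; simp)).2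
    exact (abs_nonneg _).trans_lt h1
  have hstrip : LocStrip (𝒰 : Filter ℕ) f H Qu := by
    intro z hz
    obtain ⟨ε, hε, hεQ⟩ := Metric.isOpen_iff.1 isOpen_Qu z hz
    refine ⟨ε, hε, ?_⟩
    filter_upwards [h𝒰 (hgood (‖z‖ + ε) (by positivity))] with n hn
    have hb : ∀ t ∈ ball z ε, ‖t‖ < ‖z‖ + ε := by
      intro t ht
      rw [mem_ball, dist_eq_norm] at ht
      have := norm_le_norm_add_norm_sub' t z
      linarith
    exact ⟨fun t ht => (hn t (hεQ ht) (hb t ht)).1.differentiableWithinAt,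
      fun t ht => (hn t (hεQ ht) (hb t ht)).2.le⟩
  -- the points `β n / r n`
  have hβ : ∀ᶠ n in (𝒰 : Filter ℕ), ∃ β : ℂ × ℂ, β ∈ {z : ℂ × ℂ | om ≤ -z.1.im} ∩
      {z : ℂ × ℂ | om ≤ z.2.im} ∩ closedBall 0 X ∧ |(f n β).im| ≤ H - e := by
    filter_upwards [hMd, h𝒰 hr0] with n hn hrn
    obtain ⟨β, b1, b2, b3, b4, -⟩ := hn
    have hrc : (r n : ℂ) ≠ 0 := ofReal_ne_zero.2 hrn.ne'
    refine ⟨((1 / r n : ℝ) : ℂ) • β, ⟨⟨?_, ?_⟩, ?_⟩, ?_⟩
    · show om ≤ -(((1 / r n : ℝ) : ℂ) * β.1).im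
      rw [im_ofReal_mul]
      have : om * r n / r n ≤ -β.1.im / r n := div_le_div_of_nonneg_right b1 hrn.le
      rw [mul_div_cancel_right₀ _ hrn.ne'] at this
      calc om ≤ -β.1.im / r n := this
        _ = _ := by ring
    · show om ≤ (((1 / r n : ℝ) : ℂ) * β.2).im
      rw [im_ofReal_mul]
      have : om * r n / r n ≤ β.2.im / r n := div_le_div_of_nonneg_right b2 hrn.le
      rw [mul_div_cancel_right₀ _ hrn.ne'] at this
      calc om ≤ β.2.im / r n := this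
        _ = _ := by ring
    · rw [mem_closedBall_zero_iff, norm_smul, norm_real, Real.norm_of_nonneg (by positivity),
        one_div, inv_mul_le_iff₀ hrn]
      linarith
    · have e1 : Sx Ψ (x n) (v n) (r n) (((1 / r n : ℝ) : ℂ) • β) = Sx Ψ (x n) (v n) 1 β := by
        rw [Sx_smul]
        congr 1
        field_simp
      show |(th (Sx Ψ (x n) (v n) (r n) (((1 / r n : ℝ) : ℂ) • β))).im| ≤ H - e
      rw [e1]
      exact b4
  set Q : Set (ℂ × ℂ) := {z : ℂ × ℂ | om ≤ -z.1.im} ∩ {z : ℂ × ℂ | om ≤ z.2.im} ∩ closedBall 0 X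
    with hQ
  have hQc : IsCompact Q := by
    refine (isCompact_closedBall _ _).inter_left ?_
    have h1 : Continuous fun z : ℂ × ℂ => -z.1.im := by fun_prop
    have h2 : Continuous fun z : ℂ × ℂ => z.2.im := by fun_prop
    exact (isClosed_le continuous_const h1).inter (isClosed_le continuous_const h2)
  have hQQ : Q ⊆ Qu := fun z hz => ⟨by have := hz.1.1; simp only [mem_setOf_eq] at this; linarith,
    by have := hz.1.2; simp only [mem_setOf_eq] at this; linarith⟩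
  choose! β' hβ' using fun n (h : ∃ β : ℂ × ℂ, β ∈ Q ∧ |(f n β).im| ≤ H - e) => h
  have hβQ : ∀ᶠ n in (𝒰 : Filter ℕ), β' n ∈ Q ∧ |(f n (β' n)).im| ≤ H - e := by
    filter_upwards [hβ] with n hn using hβ' n hn
  obtain ⟨bs, hbs, hbt⟩ := hQc.ultrafilter_le_nhds (𝒰.map β')
    (by rw [Ultrafilter.coe_map, le_principal_iff]; exact hβQ.mono fun n hn => hn.1)
  have hbt' : Tendsto β' (𝒰 : Filter ℕ) (𝓝 bs) := hbt
  obtain ⟨ε, hε, hεQ⟩ := Metric.isOpen_iff.1 isOpen_Qu bs (hQQ hbs)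
  have h0 : ∀ᶠ n in (𝒰 : Filter ℕ), |(f n bs).im| ≤ H - e / 2 := by
    have e4 : ∀ᶠ n in (𝒰 : Filter ℕ), dist (β' n) bs < min (ε / 2) (e * ε / (16 * H)) :=
      hbt'.eventually (ball_mem_nhds _ (by positivity))
    filter_upwards [e4, hβQ, h𝒰 (hgood (‖bs‖ + ε) (by positivity))] with n h1 h2 h3
    have hb : ∀ t ∈ ball bs ε, ‖t‖ < ‖bs‖ + ε := by
      intro t ht
      rw [mem_ball, dist_eq_norm] at ht
      have := norm_le_norm_add_norm_sub' t bs
      linarith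
    rw [dist_eq_norm] at h1
    have h4 : ‖β' n - bs‖ < ε / 2 := h1.trans_le (min_le_left _ _)
    have h5 : ‖β' n - bs‖ < e * ε / (16 * H) := h1.trans_le (min_le_right _ _)
    have h6 := H983.move_ball (θ := f n) (c := bs) (R := ε) (H := H) (z := β' n)
      (fun t ht => (h3 t (hεQ ht) (hb t ht)).1.differentiableWithinAt)
      (fun t ht => (h3 t (hεQ ht) (hb t ht)).2) (by linarith)
    have h7 : 4 * H * ‖β' n - bs‖ / (ε - ‖β' n - bs‖) ≤ e / 2 := by
      rw [div_le_iff₀ (by linarith)]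
      have h8 : ‖β' n - bs‖ * (16 * H) < e * ε := by rwa [lt_div_iff₀ (by positivity)] at h5
      nlinarith [norm_nonneg (β' n - bs)]
    have h9 : |(f n (β' n)).im - (f n bs).im| ≤ e / 2 := by
      rw [← sub_im]
      exact (abs_im_le_norm _).trans (h6.trans h7)
    have h10 := h2.2
    have h11 := abs_sub_abs_le_abs_sub (f n bs).im (f n (β' n)).im
    rw [abs_sub_comm] at h11
    linarith
  obtain ⟨N, g, -, hgd, hgt, hgs, -⟩ := ult_strip 𝒰 isOpen_Qu convex_Qu.isPreconnected hH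
    (half_pos he) hstrip (z₀ := bs) (hQQ hbs) h0
  -- the base point
  set T : ℝ := 1 + |σ - k u₀| with hT
  set z₀ : ℂ × ℂ := (-(T : ℂ) * I, I) with hz₀
  have hT0 : 0 < T := by positivity
  have hz₀N : z₀ ∈ Nr := by
    refine ⟨?_, ?_⟩
    · show (-(T : ℂ) * I).im < 0
      simp; exact hT0
    · show 0 < (I : ℂ).im
      simp
  set z₁ : ℂ × ℂ := Tl (σ - k u₀) z₀ with hz₁
  have hz₁Q : z₁ ∈ Qu := by
    refine ⟨?_, ?_⟩
    · show (Tl (σ - k u₀) z₀).1.im < 0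
      simp only [Tl, hz₀]
      simp
      have := le_abs_self (σ - k u₀)
      linarith
    · show 0 < (Tl (σ - k u₀) z₀).2.im
      simp [Tl, hz₀]
  have hZt : Tendsto (fun n => Zt Ψ (P (u n)).im (c u₀) σ (y n) (u n) (r n) (x n) (v n) z₀) atTop
      (𝓝 z₁) := by
    rw [Metric.tendsto_nhds]
    intro η hη
    obtain ⟨d₂, hd₂, r₂, hr₂, h2⟩ := back_close W.Uk W.u0 σ (K := {z₀}) isCompact_singleton
      (by rintro _ rfl; exact hz₀N.2) (half_pos hη)
    have e5 : ∀ᶠ n in atTop, |u n - u₀| < d₂ := by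
      have := Metric.tendsto_nhds.1 hS.ut d₂ hd₂
      simpa [Real.dist_eq] using this
    have e6 : ∀ᶠ n in atTop, r n < r₂ := hrt.eventually_lt_const hr₂
    have e7 : ∀ᶠ n in atTop, |(y n - (P (u n)).re - x n) / r n| < d₂ := by
      have := Metric.tendsto_nhds.1 hx d₂ hd₂
      simpa only [Real.dist_eq, sub_zero] using this
    have e8 : ∀ᶠ n in atTop, |(u n - v n) / r n| < d₂ := by
      have := Metric.tendsto_nhds.1 hv d₂ hd₂
      simpa only [Real.dist_eq, sub_zero] using this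
    filter_upwards [e5, e6, e7, e8, hr0] with n a1 a2 a3 a4 a5
    rw [abs_div, abs_of_pos a5, div_lt_iff₀ a5] at a3 a4
    rw [dist_eq_norm]
    exact (h2 (u n) (hS.uA n) a1 (y n) (x n) (v n) (r n) a5 a2 a3.le a4.le z₀ rfl).trans_lt
      (half_lt_self hη)
  have hlim : Tendsto (fun n => f n (Zt Ψ (P (u n)).im (c u₀) σ (y n) (u n) (r n) (x n) (v n) z₀) -
      (N n : ℂ)) (𝒰 : Filter ℕ) (𝓝 (g z₁)) := by
    refine tendsto_comp_of_locally_uniform_limit_within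
      (F := fun n z => f n z - (N n : ℂ)) (f := g) (s := Qu) (x := z₁)
      (g := fun n => Zt Ψ (P (u n)).im (c u₀) σ (y n) (u n) (r n) (x n) (v n) z₀)
      ((hgd.continuousOn) z₁ hz₁Q) ?_ ?_
    · refine tendsto_nhdsWithin_iff.2 ⟨hZt.mono_left h𝒰, ?_⟩
      exact h𝒰 (hZt.eventually (isOpen_Qu.mem_nhds hz₁Q))
    · intro uu huu
      exact hgt uu huu z₁ hz₁Q
  have hη := hgs z₁ hz₁Q
  refine ⟨z₀, hz₀N, (H - |(g z₁).im|) / 2, by linarith, ?_⟩
  have h12 : Tendsto (fun n => |(f n (Zt Ψ (P (u n)).im (c u₀) σ (y n) (u n) (r n) (x n) (v n) z₀) -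
      (N n : ℂ)).im|) (𝒰 : Filter ℕ) (𝓝 |(g z₁).im|) :=
    (continuous_abs.tendsto _).comp ((continuous_im.tendsto _).comp hlim)
  have h13 := h12.eventually (gt_mem_nhds (show |(g z₁).im| < H - (H - |(g z₁).im|) / 2 by linarith))
  filter_upwards [h13, h𝒰 hr0] with n hn hrn
  have e9 : kpt (P (u n)).im (c u₀) σ (y n) (u n) (r n) z₀ = Sx Ψ (x n) (v n) (r n)
      (Zt Ψ (P (u n)).im (c u₀) σ (y n) (u n) (r n) (x n) (v n) z₀) := by
    have := Sx_Zt (Ψ := Ψ) (R := (P (u n)).im) (c₀ := c u₀) (σ := σ) (y := y n) (u := u n) (r := r n)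
      (x := x n) (v := v n) (ρ := r n) hrn.ne' hrn.ne' z₀
    rw [div_self hrn.ne'] at this
    simpa using this.symm
  rw [e9]
  have e10 : (f n (Zt Ψ (P (u n)).im (c u₀) σ (y n) (u n) (r n) (x n) (v n) z₀) - (N n : ℂ)).im =
      (th (Sx Ψ (x n) (v n) (r n)
        (Zt Ψ (P (u n)).im (c u₀) σ (y n) (u n) (r n) (x n) (v n) z₀))).im := by
    simp [hf]
  rw [e10] at hn
  exact hn.le

end Vale.Agent.P097.H624.T
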